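import Mathlib
import Vale.Agent.P157.Defs
import Vale.Agent.P157.Main

/-!
# P157: existence of the limiting pressure of the Ising perceptron at every density

For log-potentials `f = log (c - W)`, where `W t = ∫ cos (θ t) dμ(θ)` is the positive definite
function of a finite measure `μ` with `μ(ℝ) < c`, the expected pressure converges for every `α > 0`.
-/

namespace Vale.Agent.Results.P157.IsingLimitExists

open MeasureTheory ProbabilityTheory Filter Topology Vale.Agent.P157

theorem result (α : ℝ) (hα : 0 < α) (μ : Measure ℝ) [IsFiniteMeasure μ] (c : ℝ)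
    (hc : μ.real Set.univ < c) :
    ∃ L : ℝ, Tendsto
      (fun N : ℕ => meanIsingPressure α (fun t => Real.log (c - ∫ θ, Real.cos (θ * t) ∂μ)) N)
      atTop (𝓝 L) :=
  tendsto_meanIsingPressure α hα μ c hc

end Vale.Agent.Results.P157.IsingLimitExists
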