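import Mathlib
import Vale.Agent.P157.Rate

/-!
# P157: the limiting pressure of the Ising perceptron exists at every density and is a supremum
of finite-volume quantities

Statement in Mathlib terms only.  Let `μ` be a finite measure on `ℝ`, `c > μ(ℝ)`,
`f t = log (c - ∫ cos (θ t) dμ(θ))`, and let `p N` be the expected pressure `E p_N(f)` of the Ising
perceptron with `⌊α N⌋` independent standard Gaussian patterns.  Then `f` is a bounded Borel function,
`|f| ≤ B`, the limit `L` of `p N` exists for every `α > 0`, every finite `N ≥ 1` gives the rigorous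
bound `p N - 4 B √α / √N - 2 B / N ≤ L`, and `L` is the supremum of these lower bounds.
-/

namespace Vale.Agent.Results.P157.SupremumFormula

open MeasureTheory ProbabilityTheory Filter Topology Vale.Agent.P157

theorem result :
    ∀ α : ℝ, 0 < α → ∀ (μ : Measure ℝ) [IsFiniteMeasure μ] (c : ℝ), μ.real Set.univ < c →
    ∀ f : ℝ → ℝ, (∀ t : ℝ, f t = Real.log (c - ∫ θ, Real.cos (θ * t) ∂μ)) →
    ∀ p : ℕ → ℝ, (∀ N : ℕ, p N =
        ∫ g : Fin ⌊α * N⌋₊ → Fin N → ℝ,
          (1 / (N : ℝ)) * Real.log ((1 / (2 : ℝ) ^ N) * ∑ x : Fin N → Bool,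
            Real.exp (∑ a : Fin ⌊α * N⌋₊,
              f ((∑ i : Fin N, g a i * (if x i then (1 : ℝ) else -1)) / Real.sqrt N)))
          ∂(Measure.pi fun _ : Fin ⌊α * N⌋₊ => Measure.pi fun _ : Fin N => gaussianReal 0 1)) →
    ∀ B : ℝ, B = max |Real.log (c - μ.real Set.univ)| |Real.log (c + μ.real Set.univ)| →
      Measurable f ∧ (∀ t : ℝ, |f t| ≤ B) ∧
      ∃ L : ℝ, Tendsto p atTop (𝓝 L) ∧
        (∀ N : ℕ, 1 ≤ N → p N - 4 * B * Real.sqrt α / Real.sqrt N - 2 * B / N ≤ L) ∧
        IsLUB {y : ℝ | ∃ N : ℕ, 1 ≤ N ∧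
          y = p N - 4 * B * Real.sqrt α / Real.sqrt N - 2 * B / N} L := by
  intro α hα μ _ c hc f hf p hp B hB
  have hfe : f = logPot μ c := by
    funext t
    rw [hf t]
    rfl
  have hBe : B = bnd μ c := hB
  have hpe : ∀ N, p N = meanIsingPressure α (logPot μ c) N := by
    intro N
    rw [hp N, hfe]
    rfl
  refine ⟨by rw [hfe]; exact measurable_logPot μ c,
    fun t => by rw [hfe, hBe]; exact abs_logPot_le μ c hc t, ?_⟩
  obtain ⟨L, hL, hL2⟩ := tendsto_meanIsingPressure_rate α hα μ c hc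
  have hT : Tendsto p atTop (𝓝 L) := hL.congr (fun N => (hpe N).symm)
  have hle : ∀ N : ℕ, 1 ≤ N → p N - 4 * B * Real.sqrt α / Real.sqrt N - 2 * B / N ≤ L := by
    intro N hN
    have h := hL2 N hN
    rw [← hpe N, ← hBe] at h
    have e : 2 * (2 * B * Real.sqrt α) / Real.sqrt N = 4 * B * Real.sqrt α / Real.sqrt N := by
      ring
    rw [e] at h
    linarith
  refine ⟨L, hT, hle, ?_, ?_⟩
  · rintro y ⟨N, hN, rfl⟩
    exact hle N hN
  · intro b hb
    have t1 : Tendsto (fun N : ℕ => 4 * B * Real.sqrt α / Real.sqrt (N : ℝ)) atTop (𝓝 0) :=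
      (Real.tendsto_sqrt_atTop.comp tendsto_natCast_atTop_atTop).const_div_atTop _
    have t2 : Tendsto (fun N : ℕ => 2 * B / (N : ℝ)) atTop (𝓝 0) :=
      tendsto_const_div_atTop_nhds_zero_nat _
    have t3 := (hT.sub t1).sub t2
    simp only [sub_zero] at t3
    refine le_of_tendsto t3 ?_
    filter_upwards [eventually_ge_atTop 1] with N hN
    exact hb ⟨N, hN, rfl⟩

end Vale.Agent.Results.P157.SupremumFormula
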